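import Mathlib

/-!
Fox calculus for a free group `N` mapping to the units of a ring `R`:
a crossed homomorphism `fox : N → (X →₀ R)` with `fox (n * m) = fox n · m + fox m`
and `fox (b x) = single x 1`, together with the fundamental formula
`n - 1 = ∑ x, (b x - 1) * fox n x`.
-/

namespace Vale.Agent.Lib.P201

open Finsupp

variable {R : Type*} [Ring R] {X : Type*}

/-- Right multiplication of a finitely supported family by a ring element. -/
noncomputable def rmul (r : R) : (X →₀ R) →+ (X →₀ R) :=
  Finsupp.mapRange.addMonoidHom (AddMonoidHom.mulRight r)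

@[simp] lemma rmul_apply (r : R) (f : X →₀ R) (x : X) : rmul r f x = f x * r := by
  simp [rmul]

lemma rmul_one (f : X →₀ R) : rmul (1 : R) f = f := by
  ext x; simp

lemma rmul_rmul (r s : R) (f : X →₀ R) : rmul s (rmul r f) = rmul (r * s) f := by
  ext x; simp [mul_assoc]

lemma rmul_single (r s : R) (x : X) : rmul r (single x s) = single x (s * r) := by
  ext y
  classical
  by_cases h : x = y
  · subst h; simp
  · simp [h]

variable {N : Type*} [Group N]

/-- The type of pairs `(a, n)`, to carry the product `(a, n) (b, m) = (a · m + b, n m)`,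
where `· m` is right multiplication by `ι m`. -/
@[ext] structure CrossPair (ι : N →* R) (X : Type*) where
  fst : X →₀ R
  snd : N

/-- The group structure on crossed pairs attached to a monoid homomorphism `ι : N →* R`. -/
noncomputable instance crossGroup (ι : N →* R) : Group (CrossPair ι X) where
  mul p q := ⟨rmul (ι q.snd) p.fst + q.fst, p.snd * q.snd⟩
  one := ⟨0, 1⟩
  inv p := ⟨- rmul (ι p.snd⁻¹) p.fst, p.snd⁻¹⟩
  mul_assoc p q r := by
    apply CrossPair.ext
    · show rmul (ι r.snd) (rmul (ι q.snd) p.fst + q.fst) + r.fst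
        = rmul (ι (q.snd * r.snd)) p.fst + (rmul (ι r.snd) q.fst + r.fst)
      rw [map_add, rmul_rmul, map_mul, add_assoc]
    · exact mul_assoc _ _ _
  one_mul p := by
    apply CrossPair.ext
    · show rmul (ι p.snd) 0 + p.fst = p.fst
      simp
    · exact one_mul _
  mul_one p := by
    apply CrossPair.ext
    · show rmul (ι 1) p.fst + 0 = p.fst
      rw [map_one, rmul_one, add_zero]
    · exact mul_one _
  inv_mul_cancel p := by
    apply CrossPair.ext
    · show rmul (ι p.snd) (- rmul (ι p.snd⁻¹) p.fst) + p.fst = 0
      rw [map_neg, rmul_rmul, ← map_mul, inv_mul_cancel, map_one, rmul_one, neg_add_cancel]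
    · exact inv_mul_cancel _

/-- The homomorphism into crossed pairs sending a basis element `b x` to `(single x 1, b x)`. -/
noncomputable def foxHom (b : FreeGroupBasis X N) (ι : N →* R) : N →* CrossPair ι X :=
  b.lift (fun x => ⟨single x 1, b x⟩)

lemma foxHom_snd (b : FreeGroupBasis X N) (ι : N →* R) (n : N) : (foxHom b ι n).snd = n := by
  let s : CrossPair ι X →* N :=
    { toFun := fun p => p.snd, map_one' := rfl, map_mul' := fun _ _ => rfl }
  have h : s.comp (foxHom b ι) = MonoidHom.id N := by
    apply b.ext_hom
    intro i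
    simp [foxHom, s]
  exact DFunLike.congr_fun h n

/-- The Fox derivative (all coordinates at once). -/
noncomputable def fox (b : FreeGroupBasis X N) (ι : N →* R) (n : N) : X →₀ R :=
  (foxHom b ι n).fst

lemma fox_mul (b : FreeGroupBasis X N) (ι : N →* R) (n m : N) :
    fox b ι (n * m) = rmul (ι m) (fox b ι n) + fox b ι m := by
  have h : foxHom b ι (n * m) = foxHom b ι n * foxHom b ι m := map_mul _ _ _
  have h2 : (foxHom b ι n * foxHom b ι m).fst
      = rmul (ι (foxHom b ι m).snd) (foxHom b ι n).fst + (foxHom b ι m).fst := rfl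
  rw [fox, h, h2, foxHom_snd]
  rfl

lemma fox_basis (b : FreeGroupBasis X N) (ι : N →* R) (x : X) :
    fox b ι (b x) = single x 1 := by
  simp [fox, foxHom]

lemma fox_one (b : FreeGroupBasis X N) (ι : N →* R) : fox b ι 1 = 0 := by
  have h := fox_mul b ι 1 1
  rw [mul_one, map_one, rmul_one] at h
  simpa using h

lemma fox_inv (b : FreeGroupBasis X N) (ι : N →* R) (n : N) :
    fox b ι n⁻¹ = - rmul (ι n⁻¹) (fox b ι n) := by
  have h := fox_mul b ι n n⁻¹
  rw [mul_inv_cancel, fox_one] at h
  exact eq_neg_of_add_eq_zero_right h.symm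

/-- The evaluation `f ↦ ∑ x, (ι (b x) - 1) * f x`. -/
noncomputable def foxEval (b : FreeGroupBasis X N) (ι : N →* R) : (X →₀ R) →+ R :=
  Finsupp.liftAddHom (fun x => AddMonoidHom.mulLeft (ι (b x) - 1))

lemma foxEval_single (b : FreeGroupBasis X N) (ι : N →* R) (x : X) (r : R) :
    foxEval b ι (single x r) = (ι (b x) - 1) * r := by
  simp [foxEval]

lemma foxEval_rmul (b : FreeGroupBasis X N) (ι : N →* R) (r : R) (f : X →₀ R) :
    foxEval b ι (rmul r f) = foxEval b ι f * r := by
  induction f using Finsupp.induction_linear with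
  | zero => simp
  | add f g hf hg => rw [map_add, map_add, hf, hg, map_add, add_mul]
  | single x s => rw [rmul_single, foxEval_single, foxEval_single, mul_assoc]

/-- The fundamental formula of Fox calculus. -/
theorem foxEval_fox (b : FreeGroupBasis X N) (ι : N →* R) (n : N) :
    foxEval b ι (fox b ι n) = ι n - 1 := by
  let S : Subgroup N :=
    { carrier := {n | foxEval b ι (fox b ι n) = ι n - 1}
      one_mem' := by simp [fox_one]
      mul_mem' := by
        intro n m hn hm
        simp only [Set.mem_ofPred_eq] at hn hm ⊢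
        rw [fox_mul, map_add, foxEval_rmul, hn, hm, map_mul]
        noncomm_ring
      inv_mem' := by
        intro n hn
        simp only [Set.mem_ofPred_eq] at hn ⊢
        rw [fox_inv, map_neg, foxEval_rmul, hn, sub_mul, ← map_mul, mul_inv_cancel, map_one]
        noncomm_ring }
  have key : ∀ w : FreeGroup X, b.repr.symm w ∈ S := by
    intro w
    induction w using FreeGroup.induction_on with
    | C1 => rw [map_one]; exact S.one_mem
    | of x =>
      show foxEval b ι (fox b ι (b x)) = ι (b x) - 1
      rw [fox_basis, foxEval_single, mul_one]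
    | inv_of x hx => rw [map_inv]; exact S.inv_mem hx
    | mul x y hx hy => rw [map_mul]; exact S.mul_mem hx hy
  have : n ∈ S := by
    have h := key (b.repr n)
    rwa [MulEquiv.symm_apply_apply] at h
  exact this

end Vale.Agent.Lib.P201
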